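import Crest.Agent.H9.RI.Defs
import Crest.Agent.H5.RI.Zar

/-! Task `T_fix` of the S0149 skeleton. -/

set_option autoImplicit false

noncomputable section

namespace Crest.Agent.Lead.RI

open MeasureTheory Set Filter Crest.Agent.H2.RP Crest.Agent.H9.RI Crest.Agent.H5.RI

theorem dens {π : Cir → Cir} (hπ : Measurable π) {ρ : Cir → ℝ} (hρ : Measurable ρ)
    (h01 : ∀ x, 0 ≤ ρ x ∧ ρ x ≤ 1) : ∃ G : Cir → ℝ, Measurable G ∧ (∀ y, 0 ≤ G y ∧ G y ≤ 1) ∧
      ∀ ψ : Cir → ℝ, Measurable ψ →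
        ∫ y, G y * ψ y ∂(mu.map π) = ∫ x, ρ x * ψ (π x) ∂mu := by
  set μ' : Measure Cir := mu.withDensity fun x => ENNReal.ofReal (ρ x) with hμ'
  have hle : μ' ≤ mu := by
    conv_rhs => rw [← withDensity_one (μ := mu)]
    exact withDensity_mono (Eventually.of_forall fun x => ENNReal.ofReal_le_one.2 (h01 x).2)
  haveI : IsFiniteMeasure μ' := isFiniteMeasure_of_le mu hle
  have hle' : μ'.map π ≤ mu.map π := Measure.map_mono hle hπ
  refine ⟨fun y => min 1 ((μ'.map π).rnDeriv (mu.map π) y).toReal,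
    measurable_const.min (Measure.measurable_rnDeriv _ _).ennreal_toReal,
    fun y => ⟨le_min zero_le_one ENNReal.toReal_nonneg, min_le_left _ _⟩, fun ψ hψ => ?_⟩
  have h1 : ∫ y, min 1 ((μ'.map π).rnDeriv (mu.map π) y).toReal * ψ y ∂(mu.map π)
      = ∫ y, ((μ'.map π).rnDeriv (mu.map π) y).toReal * ψ y ∂(mu.map π) := by
    refine integral_congr_ae ?_
    filter_upwards [Measure.rnDeriv_le_one_of_le hle'] with y hy
    rw [min_eq_right]
    exact ENNReal.toReal_le_of_le_ofReal zero_le_one (by simpa using hy)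
  rw [h1, integral_toReal_rnDeriv_mul (Measure.absolutelyContinuous_of_le hle'),
    integral_map hπ.aemeasurable hψ.aestronglyMeasurable, hμ',
    integral_withDensity_eq_integral_toReal_smul hρ.ennreal_ofReal
      (Eventually.of_forall fun x => ENNReal.ofReal_lt_top)]
  congr 1; funext x
  rw [ENNReal.toReal_ofReal (h01 x).1, smul_eq_mul]

theorem abs_sub01 {a b : ℝ} (ha : 0 ≤ a ∧ a ≤ 1) (hb : 0 ≤ b ∧ b ≤ 1) : |a - b| ≤ 1 :=
  abs_le.2 ⟨by linarith [ha.1, hb.2], by linarith [ha.2, hb.1]⟩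

theorem t_fix : T_fix := by
  intro θ f t F π w R ε e hπ hw hε he
  choose G Gm G01 Gi using fun v => dens hπ (F.mρ v) (F.r01 v)
  set m : Measure Cir := mu.map π with hm
  haveI : IsProbabilityMeasure m := Measure.isProbabilityMeasure_map hπ.aemeasurable
  let vv : (Cir → ℝ) → Cir → ℝ := fun s y => w y + s (π y)
  have hvv : ∀ s, Measurable s → (∀ x, |s x| ≤ 1 / ε) → RB (vv s) (R + 1 / ε) := fun s hs hb =>
    ⟨hw.1.add (hs.comp hπ), fun x => (abs_add_le _ _).trans (add_le_add (hw.2 x) (hb _))⟩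
  -- pairing of a difference of densities
  have pair : ∀ (u v ψ : Cir → ℝ) (Q : ℝ), Measurable ψ → (∀ x, |ψ x| ≤ Q) →
      ∫ y, (G u y - G v y) * ψ y ∂m = ∫ x, (F.ρ u x - F.ρ v x) * ψ (π x) ∂mu := by
    intro u v ψ Q hψ hQ
    have b : ∀ (a c : ℝ), (0 ≤ a ∧ a ≤ 1) → |c| ≤ Q → |a * c| ≤ Q := fun a c ha hc => by
      rw [abs_mul, abs_of_nonneg ha.1]
      exact (mul_le_of_le_one_left (abs_nonneg _) ha.2).trans hc
    have j1 : ∀ u, Integrable (fun y => G u y * ψ y) m := fun u =>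
      integrable_bdd m ((Gm u).mul hψ) Q fun x => b _ _ (G01 u x) (hQ x)
    have j2 : ∀ u, Integrable (fun x => F.ρ u x * ψ (π x)) mu := fun u =>
      integrable_bdd mu ((F.mρ u).mul (hψ.comp hπ)) Q fun x => b _ _ (F.r01 u x) (hQ _)
    simp only [sub_mul]
    rw [integral_sub (j1 u) (j1 v), integral_sub (j2 u) (j2 v), Gi u ψ hψ, Gi v ψ hψ]
  obtain ⟨s, sm, sb, hs⟩ := zar m (fun s y => G (vv s) y - G 0 y) (ε := ε)
    (c := 2 * Real.exp (8 * (R + 1 / ε)) + ε ^ 2) hε (by linarith [Real.exp_pos (8 * (R + 1 / ε))])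
    (fun s _ _ => (Gm _).sub (Gm _)) (fun s x => abs_sub01 (G01 _ x) (G01 _ x))
    (fun s s' hs hb hs' hb' => by
      simp only [sub_sub_sub_cancel_right]
      rw [pair _ _ (fun x => s x - s' x) (1 / ε + 1 / ε) (hs.sub hs')
        fun x => (abs_sub _ _).trans (add_le_add (hb x) (hb' x))]
      have h1 := F.bonus (vv s') (vv s) _ _ (hvv s' hs' hb') (hvv s hs hb)
      simp only [vv, add_sub_add_left_eq_sub] at h1
      exact le_trans (by positivity) h1)
    (fun s s' hs hb hs' hb' => by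
      simp only [sub_sub_sub_cancel_right]
      set Δ : Cir → ℝ := fun y => G (vv s) y - G (vv s') y with hΔ
      have Δm : Measurable Δ := (Gm _).sub (Gm _)
      have Δb : ∀ y, |Δ y| ≤ 1 := fun y => abs_sub01 (G01 _ y) (G01 _ y)
      set r : Cir → ℝ := fun x => F.ρ (vv s) x - F.ρ (vv s') x with hr
      have rm : Measurable r := (F.mρ _).sub (F.mρ _)
      have rb : ∀ y, |r y| ≤ 1 := fun y => abs_sub01 (F.r01 _ y) (F.r01 _ y)
      have h1 : ∫ y, Δ y * Δ y ∂m = ∫ x, r x * Δ (π x) ∂mu := pair _ _ Δ 1 Δm Δb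
      have h2 : ∫ y, Δ y ^ 2 ∂m = ∫ x, Δ (π x) ^ 2 ∂mu :=
        integral_map hπ.aemeasurable (Δm.pow_const 2).aestronglyMeasurable
      have h3 : ∫ y, (s y - s' y) ^ 2 ∂m = ∫ x, (s (π x) - s' (π x)) ^ 2 ∂mu :=
        integral_map hπ.aemeasurable ((hs.sub hs').pow_const 2).aestronglyMeasurable
      have h4 := F.lip (vv s') (vv s) _ (hvv s' hs' hb') (hvv s hs hb)
      simp only [vv, add_sub_add_left_eq_sub] at h4
      have sq1 : ∀ a : ℝ, |a| ≤ 1 → |a ^ 2| ≤ 1 := fun a ha => by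
        rw [abs_pow]; exact pow_le_one₀ (abs_nonneg _) ha
      have i1 : Integrable (fun x => r x ^ 2) mu :=
        integrable_bdd mu (rm.pow_const 2) 1 fun x => sq1 _ (rb x)
      have i2 : Integrable (fun x => Δ (π x) ^ 2) mu :=
        integrable_bdd mu ((Δm.comp hπ).pow_const 2) 1 fun x => sq1 _ (Δb _)
      have h5 : ∫ x, r x * Δ (π x) ∂mu ≤ ∫ x, (r x ^ 2 + Δ (π x) ^ 2) / 2 ∂mu := by
        refine integral_mono (integrable_bdd mu (rm.mul (Δm.comp hπ)) 1 fun x => ?_)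
          ((i1.add i2).div_const 2) fun x => ?_
        · rw [abs_mul]; exact mul_le_one₀ (rb x) (abs_nonneg _) (Δb _)
        · have := sq_nonneg (r x - Δ (π x))
          simp only; nlinarith
      rw [integral_div, integral_add i1 i2, ← h2, ← h1] at h5
      simp only [← sq] at h5
      have h6 : 0 ≤ ∫ x, (s (π x) - s' (π x)) ^ 2 ∂mu := integral_nonneg fun x => sq_nonneg _
      have h7 : ∫ x, r x ^ 2 ∂mu ≤
          2 * Real.exp (8 * (R + 1 / ε)) * ∫ x, (s (π x) - s' (π x)) ^ 2 ∂mu := h4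
      change ∫ y, Δ y ^ 2 ∂m ≤ _
      rw [h3]
      nlinarith [mul_nonneg (sq_nonneg ε) h6])
    (δ := e ^ 2) (by positivity)
  refine ⟨s, ⟨sm, sb⟩, fun ψ Q hψ => ?_⟩
  have Q0 : 0 ≤ Q := (abs_nonneg _).trans (hψ.2 0)
  set g : Cir → ℝ := fun y => ε * s y + (G (vv s) y - G 0 y) with hg
  have gm : Measurable g := (sm.const_mul ε).add ((Gm _).sub (Gm _))
  have es : ∀ y, |ε * s y| ≤ 1 := fun y => by
    rw [abs_mul, abs_of_pos hε]
    calc ε * |s y| ≤ ε * (1 / ε) := mul_le_mul_of_nonneg_left (sb y) hε.le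
      _ = 1 := by field_simp
  have gb : ∀ y, |g y| ≤ 1 + 1 := fun y =>
    (abs_add_le _ _).trans (add_le_add (es y) (abs_sub01 (G01 _ y) (G01 _ y)))
  have b1 : ∀ (a c : ℝ), |a| ≤ 1 → |c| ≤ Q → |a * c| ≤ Q := fun a c ha hc => by
    rw [abs_mul]; exact (mul_le_of_le_one_left (abs_nonneg _) ha).trans hc
  have e1 : ∫ x, (ε * s (π x) + F.ρ (fun y => w y + s (π y)) x - F.ρ 0 x) * ψ (π x) ∂mu
      = ∫ y, g y * ψ y ∂m := by
    have h1 := pair (vv s) 0 ψ Q hψ.1 hψ.2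
    have h2 : ∫ y, ε * s y * ψ y ∂m = ∫ x, ε * s (π x) * ψ (π x) ∂mu :=
      integral_map hπ.aemeasurable ((sm.const_mul ε).mul hψ.1).aestronglyMeasurable
    have j1 : Integrable (fun y => ε * s y * ψ y) m :=
      integrable_bdd m ((sm.const_mul ε).mul hψ.1) Q fun x => b1 _ _ (es x) (hψ.2 x)
    have j2 : Integrable (fun y => (G (vv s) y - G 0 y) * ψ y) m :=
      integrable_bdd m (((Gm _).sub (Gm _)).mul hψ.1) Q
        fun x => b1 _ _ (abs_sub01 (G01 _ x) (G01 _ x)) (hψ.2 x)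
    have j3 : Integrable (fun x => ε * s (π x) * ψ (π x)) mu :=
      integrable_bdd mu (((sm.comp hπ).const_mul ε).mul (hψ.1.comp hπ)) Q
        fun x => b1 _ _ (es _) (hψ.2 _)
    have j4 : Integrable (fun x => (F.ρ (vv s) x - F.ρ 0 x) * ψ (π x)) mu :=
      integrable_bdd mu (((F.mρ _).sub (F.mρ _)).mul (hψ.1.comp hπ)) Q
        fun x => b1 _ _ (abs_sub01 (F.r01 _ x) (F.r01 _ x)) (hψ.2 _)
    simp only [hg, add_mul, add_sub_assoc]
    rw [integral_add j1 j2, h1, h2]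
    exact integral_add j3 j4
  rw [e1]
  have i2 : Integrable (fun y => g y ^ 2) m := integrable_bdd m (gm.pow_const 2) ((1 + 1) ^ 2)
    fun y => by rw [abs_pow]; exact pow_le_pow_left₀ (abs_nonneg _) (gb y) 2
  have h3 : ‖∫ y, g y * ψ y ∂m‖ ≤ ∫ y, (e / 2 + g y ^ 2 / (2 * e)) * Q ∂m := by
    refine norm_integral_le_of_norm_le
      (((integrable_const _).add (i2.div_const _)).mul_const Q) (Eventually.of_forall fun y => ?_)
    rw [Real.norm_eq_abs, abs_mul]
    refine mul_le_mul ?_ (hψ.2 y) (abs_nonneg _) (by positivity)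
    rw [← sq_abs (g y), div_add_div _ _ two_ne_zero (by positivity), le_div_iff₀ (by positivity)]
    nlinarith [sq_nonneg (|g y| - e)]
  rw [integral_mul_const, integral_add (integrable_const _) (i2.div_const _),
    integral_div (2 * e), integral_const, Real.norm_eq_abs] at h3
  refine h3.trans (mul_le_mul_of_nonneg_right ?_ Q0)
  have h4 : (∫ y, g y ^ 2 ∂m) / (2 * e) ≤ e / 2 := by
    rw [div_le_iff₀ (by positivity)]
    have : ∫ y, g y ^ 2 ∂m ≤ e ^ 2 := hs
    nlinarith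
  simp only [probReal_univ, smul_eq_mul, one_mul]
  linarith

end Crest.Agent.Lead.RI
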