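import Mathlib
import Crest.Agent.H4.VD.Dim

/-! Threshold inequality with a bonus term. -/

set_option autoImplicit false

open scoped InnerProductSpace ComplexOrder

noncomputable section

namespace Crest.Agent.Lead.RI

open Crest.Agent.H4.VD

variable {H : Type*} [NormedAddCommGroup H] [InnerProductSpace ℂ H] [CompleteSpace H]

theorem bonus (T : VT H) {p A S : H →L[ℂ] H} (hp : IsStarProjection p) (hA : IsStarProjection A)
    (hS : IsStarProjection S) (pM : p ∈ T.M) (AM : A ∈ T.M) (SM : S ∈ T.M) (hSA : S * A = A)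
    {a : ℝ} (ha : 0 < a) :
    T.t (p * S) + (1 - 1 / (1 + a) ^ 2) * T.t ((1 - S) * p * A * p)
      ≤ T.t (rp ((1 + (a : ℂ) • A) * p) * S) := by
  have pp : p * p = p := hp.isIdempotentElem
  have AA : A * A = A := hA.isIdempotentElem
  have SS : S * S = S := hS.isIdempotentElem
  have ps : star p = p := hp.isSelfAdjoint
  have As : star A = A := hA.isSelfAdjoint
  have Ss : star S = S := hS.isSelfAdjoint
  have hAS : A * S = A := by
    have := congrArg star hSA
    rwa [star_mul, As, Ss] at this
  set c : ℝ := (1 + a) ^ 2 - 1 with hc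
  have c0 : 0 < c := by rw [hc]; nlinarith
  set x : H →L[ℂ] H := 1 + (a : ℂ) • A with hx
  set m : H →L[ℂ] H := p * A * p with hm
  have xs : star x = x := by simp [hx, As]
  have ms : star m = m := by simp [hm, As, ps, mul_assoc]
  have pm : p * m = m := by rw [hm, ← mul_assoc, ← mul_assoc, pp]
  have mp : m * p = m := by rw [hm, mul_assoc, pp]
  have xx : x * x = 1 + (c : ℂ) • A := by
    simp only [hx, hc, add_mul, mul_add, one_mul, mul_one, smul_mul_assoc, mul_smul_comm, AA,
      smul_smul]
    push_cast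
    module
  set y : H →L[ℂ] H := 1 + (c : ℂ) • m with hy
  have hyu : IsUnit y := by
    have h1 := res_unit (((Real.sqrt c : ℝ) : ℂ) • (p * A)) one_pos
    have e : (((Real.sqrt c : ℝ) : ℂ) • (p * A)) * star (((Real.sqrt c : ℝ) : ℂ) • (p * A))
        + ((1 : ℝ) : ℂ) • (1 : H →L[ℂ] H) = y := by
      rw [star_smul, star_mul, As, ps, smul_mul_smul_comm, hy, hm]
      have : ((Real.sqrt c : ℝ) : ℂ) * star ((Real.sqrt c : ℝ) : ℂ) = (c : ℂ) := by
        rw [Complex.star_def, Complex.conj_ofReal, ← Complex.ofReal_mul, Real.mul_self_sqrt c0.le]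
      rw [this, show p * A * (A * p) = p * A * p by rw [← mul_assoc, mul_assoc p A A, AA]]
      simp [add_comm]
    rwa [e] at h1
  set w : H →L[ℂ] H := Ring.inverse y with hw
  have yw : y * w = 1 := Ring.mul_inverse_cancel _ hyu
  have wy : w * y = 1 := Ring.inverse_mul_cancel _ hyu
  have ys : star y = y := by simp [hy, ms]
  have ws : star w = w := by
    have h1 : star w * y = 1 := by
      have := congrArg star yw
      rwa [star_mul, ys, star_one] at this
    calc star w = star w * (y * w) := by rw [yw, mul_one]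
      _ = w := by rw [← mul_assoc, h1, one_mul]
  have comm : ∀ z : H →L[ℂ] H, z * y = y * z → z * w = w * z := by
    intro z hz
    calc z * w = w * y * z * w := by rw [wy, one_mul]
      _ = w * (z * y) * w := by rw [hz, mul_assoc w y z]
      _ = w * z := by rw [← mul_assoc, mul_assoc (w * z), yw, mul_one]
  have py : p * y = y * p := by
    simp only [hy, mul_add, add_mul, mul_one, one_mul, mul_smul_comm, smul_mul_assoc, pm, mp]
  have my : m * y = y * m := by
    simp only [hy, mul_add, add_mul, mul_one, one_mul, mul_smul_comm, smul_mul_assoc]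
  have pw := comm p py
  have mw := comm m my
  have pxxp : p * (x * x) * p = y * p := by
    rw [xx, hy]
    simp only [mul_add, add_mul, mul_one, one_mul, mul_smul_comm, smul_mul_assoc, pp, mp]
    rfl
  set Q : H →L[ℂ] H := x * p * w * x with hQ
  have Qs : star Q = Q := by
    rw [hQ, star_mul, star_mul, star_mul, xs, ws, ps, ← mul_assoc w p x, ← pw]
    simp only [mul_assoc]
  have Q1 : Q * (x * p) = x * p := by
    calc Q * (x * p) = x * (p * w) * (x * x) * p := by simp only [hQ, mul_assoc]
      _ = x * w * (p * (x * x) * p) := by rw [pw]; simp only [mul_assoc]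
      _ = x * (w * y) * p := by rw [pxxp]; simp only [mul_assoc]
      _ = x * p := by rw [wy, mul_one]
  have Q2 : rp (x * p) * Q = Q := by
    rw [hQ, ← mul_assoc, ← mul_assoc, rp_mul]
  have Q3 : rp (x * p) = Q := by
    have h1 := mul_rp Q1
    have h2 := congrArg star h1
    rw [star_mul, Qs, (rp_proj (x * p)).isSelfAdjoint.star_eq, Q2] at h2
    exact h2.symm
  have xM : x ∈ T.M := VT.add_mem VT.one_mem (VT.smul_mem _ AM)
  have mM : m ∈ T.M := VT.mul_mem (VT.mul_mem pM AM) pM
  have yM : y ∈ T.M := VT.add_mem VT.one_mem (VT.smul_mem _ mM)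
  have wM : w ∈ T.M := VT.inverse_mem yM
  have S'M : 1 - S ∈ T.M := VT.sub_mem VT.one_mem SM
  have xS : x * (1 - S) = 1 - S := by
    rw [hx, add_mul, one_mul, smul_mul_assoc, mul_sub A, mul_one, hAS, sub_self, smul_zero,
      add_zero]
  have Sx : (1 - S) * x = 1 - S := by
    rw [hx, mul_add, mul_one, mul_smul_comm, sub_mul, one_mul, hSA, sub_self, smul_zero,
      add_zero]
  -- traces
  have t1 : T.t Q = T.t p := by
    calc T.t Q = T.t (x * (p * w * x)) := by simp only [hQ, mul_assoc]
      _ = T.t (p * w * x * x) := VT.t_comm xM (VT.mul_mem (VT.mul_mem pM wM) xM)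
      _ = T.t (p * (p * w * x * x)) := by rw [← mul_assoc, ← mul_assoc, ← mul_assoc, pp]
      _ = T.t ((p * w * x * x) * p) :=
          VT.t_comm pM (VT.mul_mem (VT.mul_mem (VT.mul_mem pM wM) xM) xM)
      _ = T.t (w * (p * (x * x) * p)) := by rw [pw]; simp only [mul_assoc]
      _ = T.t p := by rw [pxxp, ← mul_assoc, wy, one_mul]
  have t2 : T.t (Q * (1 - S)) = T.t ((1 - S) * (p * w)) := by
    calc T.t (Q * (1 - S)) = T.t (x * (p * w * (1 - S))) := by
          rw [hQ, mul_assoc _ x, xS]; simp only [mul_assoc]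
      _ = T.t (p * w * (1 - S) * x) := VT.t_comm xM (VT.mul_mem (VT.mul_mem pM wM) S'M)
      _ = T.t (p * w * (1 - S)) := by rw [mul_assoc _ _ x, Sx]
      _ = T.t ((1 - S) * (p * w)) := VT.t_comm (VT.mul_mem pM wM) S'M
  -- operator inequality
  set z1 : H →L[ℂ] H := (1 - p) * A * p * w with hz1
  set z2 : H →L[ℂ] H := (1 - A) * m * w with hz2
  have e1 : star z1 * z1 = w * (m - m * m) * w := by
    rw [hz1, star_mul, star_mul, star_mul, star_sub, star_one, ws, ps, As]
    have : (1 - p) * (1 - p) = 1 - p := by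
      simp only [mul_sub, sub_mul, one_mul, mul_one, pp]; abel
    calc w * (p * (A * (1 - p))) * ((1 - p) * A * p * w)
        = w * (p * A * ((1 - p) * (1 - p)) * A * p) * w := by simp only [mul_assoc]
      _ = w * (m - m * m) * w := by
          rw [this]
          congr 2
          simp only [hm, mul_sub, sub_mul, mul_one, mul_assoc]
          rw [← mul_assoc A A p, AA, ← mul_assoc p p, pp]
  have e2 : star z2 * z2 = w * (m * m - m * m * m) * w := by
    rw [hz2, star_mul, star_mul, star_sub, star_one, ws, ms, As]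
    have : (1 - A) * (1 - A) = 1 - A := by
      simp only [mul_sub, sub_mul, one_mul, mul_one, AA]; abel
    calc w * (m * (1 - A)) * ((1 - A) * m * w)
        = w * (m * ((1 - A) * (1 - A)) * m) * w := by simp only [mul_assoc]
      _ = w * (m * m - m * m * m) * w := by
          rw [this]
          congr 2
          simp only [mul_sub, sub_mul, mul_one]
          congr 1
          calc m * A * m = (m * p) * A * (p * m) := by rw [mp, pm]
            _ = m * (p * A * p) * m := by simp only [mul_assoc]
  have key : p - p * w - ((c / (1 + c) : ℝ) : ℂ) • m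
      = ((c ^ 2 / (1 + c) : ℝ) : ℂ) • (star z1 * z1) + ((c ^ 3 / (1 + c) : ℝ) : ℂ) • (star z2 * z2) := by
    rw [e1, e2]
    have hc1 : (1 + (c : ℂ)) ≠ 0 := by
      have : (1 + c : ℝ) ≠ 0 := by positivity
      exact_mod_cast this
    have k1 : y * (p - p * w - ((c / (1 + c) : ℝ) : ℂ) • m) * y
        = ((c ^ 2 / (1 + c) : ℝ) : ℂ) • (m - m * m)
          + ((c ^ 3 / (1 + c) : ℝ) : ℂ) • (m * m - m * m * m) := by
      have : y * (p * w) * y = y * p := by rw [mul_assoc, mul_assoc p w y, wy, mul_one]
      rw [mul_sub, mul_sub, sub_mul, sub_mul, this]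
      simp only [hy, mul_add, add_mul, mul_one, one_mul, mul_smul_comm, smul_mul_assoc, pm, mp,
        smul_add, smul_sub, smul_smul]
      push_cast
      match_scalars <;> field_simp <;> ring
    calc p - p * w - ((c / (1 + c) : ℝ) : ℂ) • m
        = (w * y) * (p - p * w - ((c / (1 + c) : ℝ) : ℂ) • m) * (y * w) := by
          rw [wy, yw, one_mul, mul_one]
      _ = w * (y * (p - p * w - ((c / (1 + c) : ℝ) : ℂ) • m) * y) * w := by
          simp only [mul_assoc]
      _ = _ := by
          rw [k1]
          simp only [mul_add, add_mul, mul_smul_comm, smul_mul_assoc]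
  have S's : star (1 - S) = 1 - S := by rw [star_sub, star_one, Ss]
  have S'S' : (1 - S) * (1 - S) = 1 - S := by
    simp only [mul_sub, sub_mul, one_mul, mul_one, SS]; abel
  have pos : ∀ z : H →L[ℂ] H, z ∈ T.M → 0 ≤ T.t ((1 - S) * (star z * z)) := by
    intro z zM
    have h1 := T.t_star_mul_nonneg (z * (1 - S))
    rw [star_mul, S's] at h1
    have zz : star z * z ∈ T.M := VT.mul_mem (VT.star_mem' zM) zM
    calc 0 ≤ T.t ((1 - S) * star z * (z * (1 - S))) := h1
      _ = T.t (((1 - S) * (star z * z)) * (1 - S)) := by simp only [mul_assoc]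
      _ = T.t ((1 - S) * ((1 - S) * (star z * z))) := VT.t_comm (VT.mul_mem S'M zz) S'M
      _ = _ := by rw [← mul_assoc, S'S']
  have z1M : z1 ∈ T.M :=
    VT.mul_mem (VT.mul_mem (VT.mul_mem (VT.sub_mem VT.one_mem pM) AM) pM) wM
  have z2M : z2 ∈ T.M := VT.mul_mem (VT.mul_mem (VT.sub_mem VT.one_mem AM) mM) wM
  have t3 : 0 ≤ T.t ((1 - S) * (p - p * w - ((c / (1 + c) : ℝ) : ℂ) • m)) := by
    rw [key, mul_add, mul_smul_comm, mul_smul_comm, VT.t_add, VT.t_smul, VT.t_smul]
    have := pos z1 z1M
    have := pos z2 z2M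
    positivity
  rw [mul_sub, mul_sub, mul_smul_comm, VT.t_sub, VT.t_sub, VT.t_smul, ← t2,
    VT.t_comm S'M pM] at t3
  rw [Q3]
  have e3 : (1 - 1 / (1 + a) ^ 2) = c / (1 + c) := by
    rw [hc]; field_simp; ring
  have e4 : (1 - S) * p * A * p = (1 - S) * m := by simp only [hm, mul_assoc]
  rw [e3, e4]
  rw [mul_sub, mul_sub, mul_one, mul_one, VT.t_sub, VT.t_sub, t1] at t3
  linarith

end Crest.Agent.Lead.RI
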