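import Mathlib
import Crest.Agent.H2.RP.Mult

/-! Quantitative ergodicity of an irrational rotation: almost invariant functions are almost
uncorrelated with a fixed integrable function. -/

set_option autoImplicit false

noncomputable section

namespace Crest.Agent.Lead.RI

open MeasureTheory Filter Crest.Agent.H2.RP

/-- the covariance form -/
def cv (F : Cir → ℂ) (φ : Cir → ℝ) : ℂ :=
  ∫ x, F x * (φ x : ℂ) ∂mu - (∫ x, F x ∂mu) * ((∫ x, φ x ∂mu : ℝ) : ℂ)

def Good (θ : ℝ) (F : Cir → ℂ) : Prop :=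
  ∀ ε : ℝ, 0 < ε → ∃ δ : ℝ, 0 < δ ∧ ∀ φ : Cir → ℝ, Measurable φ → (∀ x, |φ x| ≤ 1) →
    ∫ x, |φ (x + (θ : Cir)) - φ x| ∂mu ≤ δ → ‖cv F φ‖ ≤ ε

theorem int_mul {F : Cir → ℂ} (hF : Integrable F mu) {φ : Cir → ℝ} (hφ : Measurable φ)
    (h1 : ∀ x, |φ x| ≤ 1) : Integrable (fun x => F x * (φ x : ℂ)) mu := by
  refine hF.norm.mono' (hF.aestronglyMeasurable.mul
    (Complex.measurable_ofReal.comp hφ).aestronglyMeasurable) (Eventually.of_forall fun x => ?_)
  rw [norm_mul, Complex.norm_real, Real.norm_eq_abs]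
  exact mul_le_of_le_one_right (norm_nonneg _) (h1 x)

theorem int_phi {φ : Cir → ℝ} (hφ : Measurable φ) (h1 : ∀ x, |φ x| ≤ 1) : Integrable φ mu :=
  (integrable_const (1 : ℝ)).mono' hφ.aestronglyMeasurable (Eventually.of_forall fun x => h1 x)

theorem norm_cv_le {F : Cir → ℂ} (hF : Integrable F mu) {φ : Cir → ℝ} (hφ : Measurable φ)
    (h1 : ∀ x, |φ x| ≤ 1) : ‖cv F φ‖ ≤ 2 * ∫ x, ‖F x‖ ∂mu := by
  have a1 : ‖∫ x, F x * (φ x : ℂ) ∂mu‖ ≤ ∫ x, ‖F x‖ ∂mu := by
    refine norm_integral_le_of_norm_le hF.norm (Eventually.of_forall fun x => ?_)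
    rw [norm_mul, Complex.norm_real, Real.norm_eq_abs]
    exact mul_le_of_le_one_right (norm_nonneg _) (h1 x)
  have a2 : ‖∫ x, F x ∂mu‖ ≤ ∫ x, ‖F x‖ ∂mu := norm_integral_le_integral_norm _
  have a3 : ‖∫ x, φ x ∂mu‖ ≤ 1 := by
    have := norm_integral_le_of_norm_le_const (μ := mu) (f := φ) (C := 1)
      (Eventually.of_forall fun x => h1 x)
    simpa using this
  have a4 : ‖(∫ x, F x ∂mu) * ((∫ x, φ x ∂mu : ℝ) : ℂ)‖ ≤ ∫ x, ‖F x‖ ∂mu := by
    rw [norm_mul, Complex.norm_real]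
    exact (mul_le_of_le_one_right (norm_nonneg _) a3).trans a2
  unfold cv
  linarith [norm_sub_le (∫ x, F x * (φ x : ℂ) ∂mu) ((∫ x, F x ∂mu) * ((∫ x, φ x ∂mu : ℝ) : ℂ))]

theorem cv_add {F G : Cir → ℂ} (hF : Integrable F mu) (hG : Integrable G mu) {φ : Cir → ℝ}
    (hφ : Measurable φ) (h1 : ∀ x, |φ x| ≤ 1) :
    cv (fun x => F x + G x) φ = cv F φ + cv G φ := by
  unfold cv
  simp only [add_mul]
  rw [integral_add (int_mul hF hφ h1) (int_mul hG hφ h1), integral_add hF hG]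
  ring

theorem cv_smul (c : ℂ) (F : Cir → ℂ) (φ : Cir → ℝ) :
    cv (fun x => c * F x) φ = c * cv F φ := by
  unfold cv
  simp only [mul_assoc]
  rw [integral_const_mul, integral_const_mul]
  ring

theorem cv_congr {F G : Cir → ℂ} (h : F =ᵐ[mu] G) (φ : Cir → ℝ) : cv F φ = cv G φ := by
  unfold cv
  rw [integral_congr_ae h]
  congr 1
  exact integral_congr_ae (h.mono fun x hx => by simp only [hx])

theorem Good.congr {θ : ℝ} {F G : Cir → ℂ} (hF : Good θ F) (h : F =ᵐ[mu] G) : Good θ G := by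
  intro ε hε
  obtain ⟨δ, hδ, H⟩ := hF ε hε
  exact ⟨δ, hδ, fun φ a b c => by rw [← cv_congr h]; exact H φ a b c⟩

theorem Good.add {θ : ℝ} {F G : Cir → ℂ} (hF : Good θ F) (hG : Good θ G)
    (iF : Integrable F mu) (iG : Integrable G mu) : Good θ fun x => F x + G x := by
  intro ε hε
  obtain ⟨δ, hδ, H⟩ := hF (ε / 2) (by linarith)
  obtain ⟨δ', hδ', H'⟩ := hG (ε / 2) (by linarith)
  refine ⟨min δ δ', lt_min hδ hδ', fun φ a b c => ?_⟩
  rw [cv_add iF iG a b]
  have := H φ a b (c.trans (min_le_left _ _))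
  have := H' φ a b (c.trans (min_le_right _ _))
  linarith [norm_add_le (cv F φ) (cv G φ)]

theorem Good.smul {θ : ℝ} {F : Cir → ℂ} (hF : Good θ F) (c : ℂ) : Good θ fun x => c * F x := by
  intro ε hε
  have hc : 0 < ‖c‖ + 1 := by positivity
  obtain ⟨δ, hδ, H⟩ := hF (ε / (‖c‖ + 1)) (by positivity)
  refine ⟨δ, hδ, fun φ a b d => ?_⟩
  rw [cv_smul, norm_mul]
  have h1 := H φ a b d
  calc ‖c‖ * ‖cv F φ‖ ≤ (‖c‖ + 1) * (ε / (‖c‖ + 1)) :=
        mul_le_mul (by linarith) h1 (norm_nonneg _) hc.le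
    _ = ε := by field_simp

theorem fourier_ne_one {θ : ℝ} (hθ : Irrational θ) {n : ℤ} (hn : n ≠ 0) :
    (fourier n (θ : Cir) : ℂ) ≠ 1 := by
  intro h
  rw [fourier_coe_apply, Complex.exp_eq_one_iff] at h
  obtain ⟨k, hk⟩ := h
  have hI : (2 * (Real.pi : ℂ) * Complex.I) ≠ 0 := Complex.two_pi_I_ne_zero
  have h2 : (n : ℂ) * (θ : ℂ) = k := by
    apply mul_left_cancel₀ hI
    rw [mul_comm _ (k : ℂ), ← hk]
    simp only [Complex.ofReal_one, div_one]
    ring
  have h3 : (n : ℝ) * θ = k := by exact_mod_cast h2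
  exact (hθ.intCast_mul hn).ne_int k h3

theorem good_fourier {θ : ℝ} (hθ : Irrational θ) (n : ℤ) : Good θ (fourier n : Cir → ℂ) := by
  intro ε hε
  by_cases hn : n = 0
  · refine ⟨1, one_pos, fun φ a b _ => ?_⟩
    subst hn
    unfold cv
    simp only [fourier_zero, one_mul, integral_const, integral_complex_ofReal]
    simpa using hε.le
  · have hne := fourier_ne_one hθ hn
    set e : ℂ := fourier n (θ : Cir) with he
    have hpos : 0 < ‖1 - e‖ := norm_pos_iff.2 (sub_ne_zero.2 hne.symm)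
    have hen : ‖e‖ = 1 := by rw [he]; exact Circle.norm_coe _
    have hfi : Integrable (fourier n : Cir → ℂ) mu :=
      memLp_one_iff_integrable.1 ((BM.fourier n).memLp 1)
    have hsh : ∀ x : Cir, (fourier n (x + (θ : Cir)) : ℂ) = e * fourier n x := by
      intro x
      simp only [he, fourier_apply, smul_add, AddCircle.toCircle_add, Circle.coe_mul]
      ring
    have h0 : ∫ x, (fourier n x : ℂ) ∂mu = 0 := by
      have := integral_add_right_eq_self (μ := mu) (fun x => (fourier n x : ℂ)) (θ : Cir)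
      simp only [hsh] at this
      rw [integral_const_mul] at this
      have h2 : (1 - e) * ∫ x, (fourier n x : ℂ) ∂mu = 0 := by rw [sub_mul, this]; ring
      exact (mul_eq_zero.1 h2).resolve_left (sub_ne_zero.2 hne.symm)
    refine ⟨ε * ‖1 - e‖, by positivity, fun φ a b c => ?_⟩
    unfold cv
    rw [h0, zero_mul, sub_zero]
    have a' : Measurable fun x : Cir => φ (x + (θ : Cir)) := a.comp (measurable_add_const _)
    have h1 := integral_add_right_eq_self (μ := mu)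
      (fun x => (fourier n x : ℂ) * (φ x : ℂ)) (θ : Cir)
    simp only [hsh, mul_assoc] at h1
    rw [integral_const_mul] at h1
    have h2 : (1 - e) * ∫ x, (fourier n x : ℂ) * (φ x : ℂ) ∂mu
        = e * ∫ x, (fourier n x : ℂ) * (((φ (x + (θ : Cir)) - φ x : ℝ)) : ℂ) ∂mu := by
      simp only [Complex.ofReal_sub, mul_sub]
      rw [integral_sub (int_mul hfi a' fun x => b _) (int_mul hfi a b), mul_sub, h1]
      ring
    have h3 : ‖∫ x, (fourier n x : ℂ) * (((φ (x + (θ : Cir)) - φ x : ℝ)) : ℂ) ∂mu‖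
        ≤ ∫ x, |φ (x + (θ : Cir)) - φ x| ∂mu := by
      refine norm_integral_le_of_norm_le
        ((int_phi a' fun x => b _).sub (int_phi a b)).abs (Eventually.of_forall fun x => ?_)
      rw [norm_mul, Complex.norm_real, Real.norm_eq_abs]
      have : ‖(fourier n x : ℂ)‖ = 1 := Circle.norm_coe _
      rw [this, one_mul]
    have h4 := congrArg norm h2
    rw [norm_mul, norm_mul, hen, one_mul] at h4
    have h5 : ‖1 - e‖ * ‖∫ x, (fourier n x : ℂ) * (φ x : ℂ) ∂mu‖ ≤ ‖1 - e‖ * ε := by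
      rw [h4]; linarith [mul_comm ε ‖1 - e‖]
    exact le_of_mul_le_mul_left h5 hpos

theorem good_lp {θ : ℝ} (hθ : Irrational θ) (F : Lp ℂ 1 mu) : Good θ F := by
  have hspan : ∀ G ∈ Submodule.span ℂ (Set.range (fourierLp (T := (1 : ℝ)) 1)),
      Good θ (G : Cir → ℂ) := by
    intro G hG
    induction hG using Submodule.span_induction with
    | mem x hx =>
      obtain ⟨n, rfl⟩ := hx
      exact (good_fourier hθ n).congr (coeFn_fourierLp 1 n).symm
    | zero =>
      have := (good_fourier hθ 0).smul 0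
      refine this.congr ?_
      filter_upwards [Lp.coeFn_zero ℂ 1 mu] with x hx
      simp [hx]
    | add x y _ _ hx hy =>
      exact (hx.add hy (L1.integrable_coeFn x) (L1.integrable_coeFn y)).congr
        (Lp.coeFn_add x y).symm
    | smul c x _ hx => exact (hx.smul c).congr (Lp.coeFn_smul c x).symm
  have hcl : F ∈ (Submodule.span ℂ (Set.range (fourierLp (T := (1 : ℝ)) 1))).topologicalClosure := by
    rw [span_fourierLp_closure_eq_top (by simp)]; trivial
  intro ε hε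
  obtain ⟨G, hG, hd⟩ := Metric.mem_closure_iff.1 hcl (ε / 4) (by linarith)
  obtain ⟨δ, hδ, H⟩ := hspan G hG (ε / 2) (by linarith)
  refine ⟨δ, hδ, fun φ a b c => ?_⟩
  have h1 : cv F φ = cv G φ + cv (F - G : Lp ℂ 1 mu) φ := by
    rw [← cv_add (L1.integrable_coeFn G) (L1.integrable_coeFn _) a b]
    apply cv_congr
    filter_upwards [Lp.coeFn_sub F G] with x hx
    rw [hx]; simp
  have h2 := norm_cv_le (L1.integrable_coeFn (F - G)) a b
  rw [← L1.norm_eq_integral_norm, ← dist_eq_norm] at h2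
  rw [h1]
  linarith [norm_add_le (cv G φ) (cv (F - G : Lp ℂ 1 mu) φ), H φ a b c]

theorem good {θ : ℝ} (hθ : Irrational θ) {F : Cir → ℂ} (hF : Integrable F mu) : Good θ F :=
  (good_lp hθ (hF.toL1 F)).congr (Integrable.coeFn_toL1 hF)

/-- real version -/
theorem erg {θ : ℝ} (hθ : Irrational θ) {ρ : Cir → ℝ} (hρ : Integrable ρ mu) {ε : ℝ}
    (hε : 0 < ε) : ∃ δ : ℝ, 0 < δ ∧ ∀ φ : Cir → ℝ, Measurable φ → (∀ x, |φ x| ≤ 1) →
      ∫ x, |φ (x + (θ : Cir)) - φ x| ∂mu ≤ δ →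
      |∫ x, ρ x * φ x ∂mu - (∫ x, ρ x ∂mu) * ∫ x, φ x ∂mu| ≤ ε := by
  obtain ⟨δ, hδ, H⟩ := good hθ (F := fun x => (ρ x : ℂ)) hρ.ofReal ε hε
  refine ⟨δ, hδ, fun φ a b c => ?_⟩
  have := H φ a b c
  unfold cv at this
  simp only [← Complex.ofReal_mul, integral_ofReal] at this
  rw [← Real.norm_eq_abs, ← Complex.norm_real]
  convert this using 2
  push_cast
  rw [← integral_complex_ofReal, ← integral_complex_ofReal, ← integral_complex_ofReal]
  simp

end Crest.Agent.Lead.RI
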