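import Crest.Agent.H9.RI.Defs
import Crest.Agent.H4.VD.Mono
import Crest.Agent.Lead.RI.Bonus
import Crest.Agent.Lead.RI.Erg

/-! Tasks `T_gain` and `T_erg` of the S0149 skeleton. -/

set_option autoImplicit false

noncomputable section

namespace Crest.Agent.Lead.RI

open MeasureTheory Set Filter Crest.Agent.H2.RP Crest.Agent.H4.VD Crest.Agent.H9.RI
open scoped ComplexOrder

theorem t_erg : T_erg := by
  intro θ ρ e hθ hρ he
  have hi : Integrable ρ mu := int_phi hρ.1 hρ.2
  obtain ⟨δ, hδ, H⟩ := erg hθ hi he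
  refine ⟨δ, hδ, fun ψ hψ hc => ?_⟩
  have e1 : ∀ x, mv θ x 1 = x + (θ : Cir) := fun x => by simp [mv]
  simp only [e1] at hc
  have h1 := H ψ hψ.1 hψ.2 hc
  have hψi : Integrable ψ mu := int_phi hψ.1 hψ.2
  have hm : Integrable (fun x => ρ x * ψ x) mu :=
    int_phi (hρ.1.mul hψ.1) fun x => by
      rw [abs_mul]; exact mul_le_one₀ (hρ.2 x) (abs_nonneg _) (hψ.2 x)
  simp only [sub_mul]
  rw [integral_sub hm (hψi.const_mul _), integral_const_mul]
  exact h1

section
variable {H : Type*} [NormedAddCommGroup H] [InnerProductSpace ℂ H] [CompleteSpace H]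

theorem rp_eq_of {x y : H →L[ℂ] H} (h1 : rp x * y = y) (h2 : rp y * x = x) : rp x = rp y := by
  have a1 := mul_rp h1
  have a2 := congrArg star (mul_rp h2)
  rw [star_mul, (rp_proj _).isSelfAdjoint.star_eq, (rp_proj _).isSelfAdjoint.star_eq] at a2
  rw [← a2, a1]

theorem rp_mul_rp (x y : H →L[ℂ] H) : rp (x * rp y) = rp (x * y) := by
  apply rp_eq_of
  · calc rp (x * rp y) * (x * y) = rp (x * rp y) * (x * rp y) * y := by
          rw [mul_assoc, mul_assoc x, rp_mul y]
      _ = x * y := by rw [rp_mul, mul_assoc, rp_mul]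
  · have h : ((1 - rp (x * y)) * x) * y = 0 := by
      rw [mul_assoc, sub_mul, one_mul, rp_mul, sub_self]
    have := mul_rp_zero h
    rw [mul_assoc, sub_mul, one_mul, sub_eq_zero] at this
    exact this.symm

theorem rp_smul {c : ℂ} (hc : c ≠ 0) (x : H →L[ℂ] H) : rp (c • x) = rp x := by
  apply rp_eq_of
  · have := rp_mul (c • x)
    rw [mul_smul_comm] at this
    exact smul_right_injective _ hc this
  · rw [mul_smul_comm, rp_mul]
end

def RB' (g : Cir → ℝ) : Prop := Measurable g ∧ ∃ C : ℝ, ∀ x, |g x| ≤ C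

theorem RB'.bm {g : Cir → ℝ} (h : RB' g) : BM fun x => (g x : ℂ) := by
  obtain ⟨hm, C, hC⟩ := h
  exact ⟨Complex.measurable_ofReal.comp hm, C, fun x => by simpa using hC x⟩

theorem RB'.mul {g h : Cir → ℝ} (hg : RB' g) (hh : RB' h) : RB' fun x => g x * h x := by
  obtain ⟨hm, C, hC⟩ := hg
  obtain ⟨hm', D, hD⟩ := hh
  exact ⟨hm.mul hm', C * D, fun x => by
    rw [abs_mul]; exact mul_le_mul (hC x) (hD x) (abs_nonneg _) ((abs_nonneg _).trans (hC x))⟩

theorem RB'.sub {g h : Cir → ℝ} (hg : RB' g) (hh : RB' h) : RB' fun x => g x - h x := by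
  obtain ⟨hm, C, hC⟩ := hg
  obtain ⟨hm', D, hD⟩ := hh
  exact ⟨hm.sub hm', C + D, fun x => (abs_sub _ _).trans (add_le_add (hC x) (hD x))⟩

theorem RB'.add {g h : Cir → ℝ} (hg : RB' g) (hh : RB' h) : RB' fun x => g x + h x := by
  obtain ⟨hm, C, hC⟩ := hg
  obtain ⟨hm', D, hD⟩ := hh
  exact ⟨hm.add hm', C + D, fun x => (abs_add_le _ _).trans (add_le_add (hC x) (hD x))⟩

theorem RB'.const (c : ℝ) : RB' fun _ => c := ⟨measurable_const, |c|, fun _ => le_rfl⟩

theorem RB'.sqrt {g : Cir → ℝ} (hg : RB' g) : RB' fun x => Real.sqrt (g x) := by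
  obtain ⟨hm, C, hC⟩ := hg
  exact ⟨hm.sqrt, Real.sqrt C, fun x => by
    rw [abs_of_nonneg (Real.sqrt_nonneg _)]
    exact Real.sqrt_le_sqrt ((le_abs_self _).trans (hC x))⟩

theorem RB'.exp {g : Cir → ℝ} (hg : RB' g) : RB' fun x => Real.exp (g x) := by
  obtain ⟨hm, C, hC⟩ := hg
  exact ⟨hm.exp, Real.exp C, fun x => by
    rw [abs_of_pos (Real.exp_pos _)]
    exact Real.exp_le_exp.2 ((le_abs_self _).trans (hC x))⟩

theorem RB'.ind {S : Set Cir} (hS : MeasurableSet S) : RB' (S.indicator fun _ => (1 : ℝ)) :=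
  ⟨measurable_const.indicator hS, 1, fun x => by by_cases h : x ∈ S <;> simp [h]⟩

variable {θ : ℝ} {g h : Cir → ℝ}

theorem pr_mul (hg : RB' g) (hh : RB' h) : pr' θ (fun x => g x * h x) = pr' θ g * pr' θ h := by
  unfold pr'
  rw [← pi_mul hg.bm hh.bm]; simp only [Complex.ofReal_mul]

theorem pr_sub (hg : RB' g) (hh : RB' h) : pr' θ (fun x => g x - h x) = pr' θ g - pr' θ h := by
  unfold pr'
  rw [← pi_sub hg.bm hh.bm]; simp only [Complex.ofReal_sub]

theorem pr_add (hg : RB' g) (hh : RB' h) : pr' θ (fun x => g x + h x) = pr' θ g + pr' θ h := by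
  unfold pr'
  rw [← pi_add hg.bm hh.bm]; simp only [Complex.ofReal_add]

theorem pr_const (c : ℝ) : pr' θ (fun _ => c) = (c : ℂ) • 1 := pi_const _

theorem pr_star (hg : RB' g) : star (pr' θ g) = pr' θ g := by
  unfold pr'
  rw [← pi_star hg.bm]; simp only [Complex.conj_ofReal]

theorem pr_le (hg : RB' g) (hh : RB' h) (hle : ∀ x, g x ≤ h x) : pr' θ g ≤ pr' θ h := by
  have h1 := (hh.sub hg).sqrt
  have h2 : pr' θ h - pr' θ g = star (pr' θ fun x => Real.sqrt (h x - g x)) *
      pr' θ fun x => Real.sqrt (h x - g x) := by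
    rw [pr_star h1, ← pr_mul h1 h1, ← pr_sub hh hg]
    congr 1; funext x; rw [Real.mul_self_sqrt (sub_nonneg.2 (hle x))]
  rw [← sub_nonneg, h2]
  exact star_mul_self_nonneg _

theorem iS_eq (S : Set Cir) : iS θ S = pr' θ (S.indicator fun _ => (1 : ℝ)) := by
  unfold iS pr'
  congr 1; funext x; by_cases h : x ∈ S <;> simp [h]

theorem iS_proj {S : Set Cir} (hS : MeasurableSet S) : IsStarProjection (iS θ S) := by
  rw [iS_eq]
  refine ⟨?_, pr_star (RB'.ind hS)⟩
  change _ * _ = _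
  rw [← pr_mul (RB'.ind hS) (RB'.ind hS)]
  congr 1; funext x; by_cases h : x ∈ S <;> simp [h]

theorem iS_compl {S : Set Cir} (hS : MeasurableSet S) : iS θ Sᶜ = 1 - iS θ S := by
  rw [iS_eq, iS_eq]
  have : (1 : Op) = pr' θ fun _ => 1 := by rw [pr_const]; simp
  rw [this, ← pr_sub (RB'.const 1) (RB'.ind hS)]
  congr 1; funext x; by_cases h : x ∈ S <;> simp [h]

theorem t_gain : T_gain := by
  intro θ U V T q d R a hT qM hq hd
  have hd' : RB' d := ⟨hd.1, R, hd.2⟩
  have mem : ∀ g : Cir → ℝ, RB' g → pr' θ g ∈ T.M := fun g hg => hT.sub (pi_mem hT.hUV hg.bm)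
  set S : Set Cir := {x | a < d x} with hSd
  set A : Set Cir := {x | a + 1 < d x} with hAd
  have hS : MeasurableSet S := measurableSet_lt measurable_const hd.1
  have hA : MeasurableSet A := measurableSet_lt measurable_const hd.1
  have hAS : ∀ x, x ∈ A → x ∈ S := fun x hx => by
    simp only [hSd, hAd, mem_setOf_eq] at hx ⊢; linarith
  have SM : iS θ S ∈ T.M := by rw [iS_eq]; exact mem _ (RB'.ind hS)
  have AM : iS θ A ∈ T.M := by rw [iS_eq]; exact mem _ (RB'.ind hA)
  have hSA : iS θ S * iS θ A = iS θ A := by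
    rw [iS_eq, iS_eq, ← pr_mul (RB'.ind hS) (RB'.ind hA)]
    congr 1; funext x
    by_cases h : x ∈ A
    · simp [h, hAS x h]
    · simp [h]
  have e1 : (1 : ℝ) < Real.exp 1 := Real.one_lt_exp_iff.2 one_pos
  have e2 : (2 : ℝ) ≤ Real.exp 1 := by linarith [Real.add_one_le_exp (1 : ℝ)]
  have b1 := bonus T hq (iS_proj hA) (iS_proj hS) qM AM SM hSA (a := Real.exp 1 - 1) (by linarith)
  set χ : Cir → ℝ := A.indicator fun _ => (1 : ℝ) with hχ
  set σ : Cir → ℝ := S.indicator fun _ => (1 : ℝ) with hσ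
  have χb : RB' χ := RB'.ind hA
  have σb : RB' σ := RB'.ind hS
  have x1 : (1 + ((Real.exp 1 - 1 : ℝ) : ℂ) • iS θ A : Op) = pr' θ fun x => Real.exp (χ x) := by
    have : (1 : Op) = pr' θ fun _ => 1 := by rw [pr_const]; simp
    have h2 : ((Real.exp 1 - 1 : ℝ) : ℂ) • iS θ A = pr' θ fun x => (Real.exp 1 - 1) * χ x := by
      rw [pr_mul (RB'.const _) χb, pr_const, iS_eq, smul_mul_assoc, one_mul]
    rw [h2, this, ← pr_add (RB'.const 1) ((RB'.const _).mul χb)]
    congr 1; funext x; by_cases h : x ∈ A <;> simp [hχ, h]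
  rw [x1] at b1
  set u : Cir → ℝ := fun x => d x - a - χ x with hu
  have ub : RB' u := (hd'.sub (RB'.const a)).sub χb
  set y : Cir → ℝ := fun x => Real.exp (u x) with hy
  have yb : RB' y := ub.exp
  have conj : ∀ k : Cir → ℝ, RB' k →
      star (pr' θ y) * pr' θ k * pr' θ y = pr' θ fun x => y x * k x * y x := by
    intro k hk
    rw [pr_star yb, ← pr_mul yb hk, ← pr_mul (yb.mul hk) yb]
  have one_sub : (1 : Op) - iS θ S = pr' θ fun x => 1 - σ x := by
    have : (1 : Op) = pr' θ fun _ => 1 := by rw [pr_const]; simp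
    rw [iS_eq, pr_sub (RB'.const 1) σb, ← this]
  have yy : ∀ x, y x * y x = Real.exp (2 * u x) := fun x => by
    rw [hy, ← Real.exp_add]; congr 1; ring
  have b2 : T.t (rp (pr' θ (fun x => Real.exp (χ x)) * q) * iS θ S) ≤
      T.t (rp (pr' θ y * rp (pr' θ (fun x => Real.exp (χ x)) * q)) * iS θ S) := by
    refine VT.thresh (rp_proj _) (iS_proj hS) (VT.rp_mem (VT.mul_mem (mem _ χb.exp) qM)) SM
      (mem _ yb) (c := Real.exp (-(2 * (|R| + |a|)))) (Real.exp_pos _)
      (Real.exp_le_one_iff.2 (by have := abs_nonneg R; have := abs_nonneg a; linarith)) ?_ ?_ ?_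
    · rw [iS_eq, conj _ σb]
      refine pr_le σb ((yb.mul σb).mul yb) fun x => ?_
      change σ x ≤ y x * σ x * y x
      by_cases h : x ∈ S
      · have h1 : σ x = 1 := by simp [hσ, h]
        rw [h1, mul_one, yy]
        apply Real.one_le_exp
        by_cases h' : x ∈ A
        · have : χ x = 1 := by simp [hχ, h']
          have h3 : a + 1 < d x := h'
          simp only [hu, this]; linarith
        · have : χ x = 0 := by simp [hχ, h']
          have h3 : a < d x := h
          simp only [hu, this]; linarith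
      · have h1 : σ x = 0 := by simp [hσ, h]
        simp [h1]
    · rw [one_sub, conj _ ((RB'.const 1).sub σb), ← smul_one_mul, ← pr_const,
        ← pr_mul (RB'.const _) ((RB'.const 1).sub σb)]
      refine pr_le ((RB'.const _).mul ((RB'.const 1).sub σb))
        ((yb.mul ((RB'.const 1).sub σb)).mul yb) fun x => ?_
      by_cases h : x ∈ S
      · have h1 : σ x = 1 := by simp [hσ, h]
        simp [h1]
      · have h1 : σ x = 0 := by simp [hσ, h]
        have h2 : χ x = 0 := by
          have : x ∉ A := fun h' => h (hAS x h')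
          simp [hχ, this]
        rw [h1, sub_zero, mul_one, mul_one, yy]
        apply Real.exp_le_exp.2
        have := neg_abs_le (d x)
        have := hd.2 x
        have := le_abs_self R
        have := le_abs_self a
        simp only [hu, h2]; linarith
    · rw [one_sub, conj _ ((RB'.const 1).sub σb)]
      refine pr_le ((yb.mul ((RB'.const 1).sub σb)).mul yb) ((RB'.const 1).sub σb) fun x => ?_
      by_cases h : x ∈ S
      · have h1 : σ x = 1 := by simp [hσ, h]
        simp [h1]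
      · have h1 : σ x = 0 := by simp [hσ, h]
        have h2 : χ x = 0 := by
          have : x ∉ A := fun h' => h (hAS x h')
          simp [hχ, this]
        rw [h1, sub_zero, mul_one, yy]
        apply Real.exp_le_one_iff.2
        have h3 : ¬ a < d x := h
        simp only [hu, h2]; linarith [not_lt.1 h3]
  have b3 : rp (pr' θ y * rp (pr' θ (fun x => Real.exp (χ x)) * q)) = pv θ d q := by
    rw [rp_mul_rp, pv, ← rp_smul (c := ((Real.exp a : ℝ) : ℂ))
      (by exact_mod_cast (Real.exp_pos a).ne'), ← mul_assoc, ← smul_mul_assoc, ← smul_one_mul,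
      ← pr_const, ← pr_mul yb χb.exp, ← pr_mul (RB'.const _) (yb.mul χb.exp)]
    congr 3; funext x
    simp only [hy, hu, ← Real.exp_add]; congr 1; ring
  rw [b3] at b2
  have S'M : 1 - iS θ S ∈ T.M := VT.sub_mem VT.one_mem SM
  have b4 : T.t (iS θ A * q * iS θ Sᶜ * q) = T.t ((1 - iS θ S) * q * iS θ A * q) := by
    rw [iS_compl hS, mul_assoc (iS θ A * q), VT.t_comm (VT.mul_mem AM qM) (VT.mul_mem S'M qM),
      ← mul_assoc]
  have b5 : 0 ≤ T.t ((1 - iS θ S) * q * iS θ A * q) := by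
    have h1 := T.t_star_mul_nonneg (iS θ A * q * (1 - iS θ S))
    have hS' := (iS_proj (θ := θ) hS).one_sub
    rw [star_mul, star_mul, hS'.isSelfAdjoint.star_eq, hq.isSelfAdjoint.star_eq,
      (iS_proj (θ := θ) hA).isSelfAdjoint.star_eq] at h1
    have h2 : (1 - iS θ S) * (q * iS θ A) * (iS θ A * q * (1 - iS θ S))
        = ((1 - iS θ S) * q * iS θ A * q) * (1 - iS θ S) := by
      calc _ = (1 - iS θ S) * q * (iS θ A * iS θ A) * q * (1 - iS θ S) := by simp only [mul_assoc]
        _ = _ := by rw [(iS_proj (θ := θ) hA).isIdempotentElem.eq]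
    rw [h2, VT.t_comm (VT.mul_mem (VT.mul_mem (VT.mul_mem S'M qM) AM) qM) S'M, ← mul_assoc,
      ← mul_assoc, ← mul_assoc, hS'.isIdempotentElem.eq] at h1
    exact h1
  have b6 : (1 : ℝ) / 2 ≤ 1 - 1 / (1 + (Real.exp 1 - 1)) ^ 2 := by
    have : 1 / (1 + (Real.exp 1 - 1)) ^ 2 ≤ 1 / 2 :=
      one_div_le_one_div_of_le two_pos (by nlinarith)
    linarith
  rw [b4]
  nlinarith [mul_le_mul_of_nonneg_right b6 b5]

end Crest.Agent.Lead.RI
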